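import Mathlib
import Vale.Agent.Lib.P032.Circle

/-!
Closed colour classes: at least six colours are needed for the plane.

Proof outline: a point lying in three classes exists (Sperner lemma on a fine grid together with
the compactness gap around distance one); the unit circle around that point must then be covered
by the two remaining closed classes, which is impossible because of unit chords.
-/

namespace Vale.Agent.Results.P032.A_closed

open Vale.Agent.Lib.P032

/-- If the Euclidean plane is covered by five closed sets, one of them contains two points at
distance exactly one. Hence a proper colouring of the plane with closed colour classes needs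
at least six colours. -/
theorem result (A : Fin 5 → Set (EuclideanSpace ℝ (Fin 2))) (hclosed : ∀ i, IsClosed (A i))
    (hcover : ∀ x, ∃ i, x ∈ A i) :
    ∃ i, ∃ x ∈ A i, ∃ y ∈ A i, dist x y = 1 := by
  by_contra hcon
  push Not at hcon
  obtain ⟨i, j, k, hij, hjk, hik, p, hpi, hpj, hpk⟩ := triple_point A hclosed hcover hcon
  -- the two remaining classes
  have hrest : ∀ i j k : Fin 5, i ≠ j → j ≠ k → i ≠ k →
      ∃ D F : Fin 5, ∀ l : Fin 5, l = i ∨ l = j ∨ l = k ∨ l = D ∨ l = F := by
    decide
  obtain ⟨D, F, hDF⟩ := hrest i j k hij hjk hik
  refine circle_two_closed p (A D) (A F) (hclosed D) (hclosed F) ?_ (hcon D) (hcon F)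
  intro t
  obtain ⟨l, hl⟩ := hcover (gam p t)
  rcases hDF l with rfl | rfl | rfl | rfl | rfl
  · exact absurd (dist_center_gam p t) (hcon _ p hpi _ hl)
  · exact absurd (dist_center_gam p t) (hcon _ p hpj _ hl)
  · exact absurd (dist_center_gam p t) (hcon _ p hpk _ hl)
  · exact Or.inl hl
  · exact Or.inr hl

end Vale.Agent.Results.P032.A_closed
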